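import Vale.Agent.P037.Main

namespace Vale.Agent.Results.P037.NotPolynomial

open Vale.Agent.P037

theorem result : ∃ (k : ℕ) (H : Fin k → Fin k → Bool), 1 ≤ k ∧
    (∀ c C : ℝ, 0 < c → 0 < C → ∃ n : ℕ, 1 ≤ n ∧ ∃ ε : ℝ, 0 < ε ∧ ε < 1 ∧
      ∃ A : Fin n → Fin n → Bool, ε ≤ distFree H A ∧
        (copies H A : ℝ) < c * ε ^ C * (n : ℝ) ^ (2 * k)) ∧
    (∀ ε : ℝ, 0 < ε → ε ≤ 1 / 192 ^ 2 → ∃ n : ℕ, 1 ≤ n ∧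
      ∃ A : Fin n → Fin n → Bool, ε ≤ distFree H A ∧
        (copies H A : ℝ) ≤ (2 : ℝ) ^ (-(1 / (128 * √ε))) * (n : ℝ) ^ (2 * k)) :=
  ⟨22, H22, by norm_num, notPoly, quant⟩

end Vale.Agent.Results.P037.NotPolynomial
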